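import Crest.Agent.S0066Aux.Defs

set_option autoImplicit false

namespace Crest.Agent.S0066Aux

variable {h : ℕ}

def Grp.equivSum (h : ℕ) :
    Grp h ≃ ((Fin h × Bool) ⊕ Fin h) ⊕ ((Fin h × Bool) ⊕ Fin h) ⊕ Fin 4 where
  toFun
    | .Tr i b => .inl (.inl (i, b))
    | .Tt i => .inl (.inr i)
    | .Sr i b => .inr (.inl (.inl (i, b)))
    | .St i => .inr (.inl (.inr i))
    | .start => .inr (.inr 0)
    | .mid1 => .inr (.inr 1)
    | .mid2 => .inr (.inr 2)
    | .fin => .inr (.inr 3)
  invFun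
    | .inl (.inl (i, b)) => .Tr i b
    | .inl (.inr i) => .Tt i
    | .inr (.inl (.inl (i, b))) => .Sr i b
    | .inr (.inl (.inr i)) => .St i
    | .inr (.inr 0) => .start
    | .inr (.inr 1) => .mid1
    | .inr (.inr 2) => .mid2
    | .inr (.inr 3) => .fin
  left_inv g := by cases g <;> rfl
  right_inv x := by
    rcases x with (⟨i, b⟩ | i) | (⟨i, b⟩ | i) | k
    · rfl
    · rfl
    · rfl
    · rfl
    · fin_cases k <;> rfl

theorem card_grp : Fintype.card (Grp h) = 6 * h + 4 := by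
  rw [Fintype.card_congr (Grp.equivSum h)]
  simp only [Fintype.card_sum, Fintype.card_prod, Fintype.card_fin, Fintype.card_bool]
  omega

def Core.equivSum (h : ℕ) :
    Core h ≃ (Fin (2 ^ h) ⊕ Fin (2 ^ h)) ⊕
      ((Fin (2 ^ h) × Fin (h + 1)) ⊕ (Fin (2 ^ h) × Fin (h + 1))) where
  toFun
    | .top u => .inl (.inl u)
    | .bot u => .inl (.inr u)
    | .S a i => .inr (.inl (a, i))
    | .T a i => .inr (.inr (a, i))
  invFun
    | .inl (.inl u) => .top u
    | .inl (.inr u) => .bot u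
    | .inr (.inl (a, i)) => .S a i
    | .inr (.inr (a, i)) => .T a i
  left_inv g := by cases g <;> rfl
  right_inv x := by
    rcases x with (u | u) | (⟨a, i⟩ | ⟨a, i⟩) <;> rfl

theorem card_core : Fintype.card (Core h) = (2 * h + 4) * 2 ^ h := by
  rw [Fintype.card_congr (Core.equivSum h)]
  simp only [Fintype.card_sum, Fintype.card_prod, Fintype.card_fin]
  ring

def Line.equivSum (h : ℕ) :
    Line h ≃ Core h ⊕ (Grp h × Bool × Fin (2 ^ h)) ⊕ (Fin (372 * h - 10) × Fin (2 ^ h)) where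
  toFun
    | .core c => .inl c
    | .fr g r u => .inr (.inl (g, r, u))
    | .jk j u => .inr (.inr (j, u))
  invFun
    | .inl c => .core c
    | .inr (.inl (g, r, u)) => .fr g r u
    | .inr (.inr (j, u)) => .jk j u
  left_inv g := by cases g <;> rfl
  right_inv x := by
    rcases x with c | ⟨g, r, u⟩ | ⟨j, u⟩ <;> rfl

theorem card_line (hh : 1 ≤ h) : Fintype.card (Line h) = (386 * h + 2) * 2 ^ h := by
  rw [Fintype.card_congr (Line.equivSum h)]
  simp only [Fintype.card_sum, Fintype.card_prod, Fintype.card_fin, Fintype.card_bool,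
    card_core, card_grp]
  obtain ⟨k, rfl⟩ : ∃ k, h = k + 1 := ⟨h - 1, by omega⟩
  have : 372 * (k + 1) - 10 = 372 * k + 362 := by omega
  rw [this]
  ring

end Crest.Agent.S0066Aux
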