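import Crest.Agent.S0066Aux.Order

set_option autoImplicit false

namespace Crest.Agent.S0066Aux

variable {h : ℕ}

/-- The 66 lines used by a gadget copy. -/
def lineAt (hh : 1 ≤ h) (p0 p1 : Core h) (g : Grp h) (u : Fin (2 ^ h)) (i : Fin 66) : Line h :=
  if i.val = 0 then .core p0
  else if i.val = 1 then .core p1
  else if i.val = 2 then .fr g false u
  else if i.val = 3 then .fr g true u
  else .jk ⟨i.val - 4, by omega⟩ u

theorem lineAt_strictMono (hh : 1 ≤ h) (p0 p1 : Core h) (g : Grp h) (u : Fin (2 ^ h))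
    (h01 : Line.core p0 < Line.core p1) : StrictMono (lineAt hh p0 p1 g u) := by
  intro i j hij
  have hij' : i.val < j.val := hij
  have h0 := p0.major_le
  have h1 := p1.major_le
  have hg := g.idx_lt
  rw [Line.lt_iff] at h01 ⊢
  simp only [Line.major, Line.minor] at h01
  unfold lineAt
  split_ifs <;> simp only [Line.major, Line.minor, Bool.toNat_false, Bool.toNat_true] <;> omega

theorem H4_left (i j : ℕ) : H4 (i + 4) j = false := by
  rcases j with _ | _ | _ | _ | j <;> rfl

theorem H4_right (i j : ℕ) : H4 i (j + 4) = false := by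
  rcases i with _ | _ | _ | _ | i <;> rfl

/-- One gadget: if `B` agrees with `M` on the obstruction set `O(κ, u)` and contains no copy of
the pattern, then three ones in the 2 × 2 core block of group `g` force the fourth. -/
theorem gadget (hh : 1 ≤ h) (B : Line h → Line h → Bool)
    (hfree : ∀ rows cols : Fin 66 → Line h, StrictMono rows → StrictMono cols →
      ¬ ∀ i j, B (rows i) (cols j) = Hpat i j)
    (κ u : Fin (2 ^ h)) (hB : ∀ p q, Sel κ u p q → B p q = M p q)
    (g : Grp h) (p0 p1 q0 q1 : Core h)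
    (hp : Line.core p0 < Line.core p1) (hq : Line.core q0 < Line.core q1)
    (hp0 : LineOK κ u (.core p0)) (hp1 : LineOK κ u (.core p1))
    (hq0 : LineOK κ.rev (u + κ) (.core q0)) (hq1 : LineOK κ.rev (u + κ) (.core q1))
    (r00 : (g.rowMk false).holds p0 = true) (r01 : (g.rowMk true).holds p0 = false)
    (r10 : (g.rowMk false).holds p1 = false) (r11 : (g.rowMk true).holds p1 = true)
    (c00 : (g.colMk false).holds q0 = true) (c01 : (g.colMk true).holds q0 = false)
    (c10 : (g.colMk false).holds q1 = false) (c11 : (g.colMk true).holds q1 = true)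
    (b01 : B (.core p0) (.core q1) = true) (b10 : B (.core p1) (.core q0) = true)
    (b11 : B (.core p1) (.core q1) = true) :
    B (.core p0) (.core q0) = true := by
  by_contra hcon
  have b00 : B (.core p0) (.core q0) = false := by simpa using hcon
  refine hfree (lineAt hh p0 p1 g u) (lineAt hh q0 q1 g (u + κ))
    (lineAt_strictMono hh p0 p1 g u hp) (lineAt_strictMono hh q0 q1 g (u + κ) hq) ?_
  -- twin lines are OK
  have okfr : ∀ (κ' u' : Fin (2 ^ h)) (r : Bool), LineOK κ' u' (.fr g r u') := by
    intro κ' u' r; simp [LineOK, Line.ix, Line.reg]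
  have okjk : ∀ (κ' u' : Fin (2 ^ h)) (j : Fin (372 * h - 10)), LineOK κ' u' (.jk j u') := by
    intro κ' u' j; simp [LineOK, Line.ix, Line.reg]
  have selL : ∀ p q, LineOK κ u p → LineOK κ.rev (u + κ) q → p.reg = false → B p q = M p q := by
    intro p q h1 h2 h3
    exact hB p q ⟨h1, h2, by simp [h3]⟩
  have selR : ∀ p q, LineOK κ u p → LineOK κ.rev (u + κ) q → q.reg = false → B p q = M p q := by
    intro p q h1 h2 h3
    exact hB p q ⟨h1, h2, by simp [h3]⟩
  rintro ⟨i, hi⟩ ⟨j, hj⟩
  rcases i with _ | _ | _ | _ | i <;> rcases j with _ | _ | _ | _ | j <;>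
    simp only [lineAt, Hpat, H4_left, H4_right] <;> simp <;>
    first
    | (rw [b00]; rfl)
    | (rw [b01]; rfl)
    | (rw [b10]; rfl)
    | (rw [b11]; rfl)
    | (rw [selL _ _ (okfr _ _ _) (by first | exact hq0 | exact hq1 | exact okfr _ _ _ | exact okjk _ _ _) rfl]
       simp [M, H4, c00, c01, c10, c11])
    | (rw [selL _ _ (okjk _ _ _) (by first | exact hq0 | exact hq1 | exact okfr _ _ _ | exact okjk _ _ _) rfl]
       simp [M])
    | (rw [selR _ _ (by first | exact hp0 | exact hp1) (okfr _ _ _) rfl]
       simp [M, H4, r00, r01, r10, r11])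
    | (rw [selR _ _ (by first | exact hp0 | exact hp1) (okjk _ _ _) rfl]
       simp [M])

end Crest.Agent.S0066Aux
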