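import Crest.Agent.S0066Aux.Sound
import Crest.Agent.S0066Aux.Gadget

set_option autoImplicit false

namespace Crest.Agent.S0066Aux

variable {h : ℕ}

theorem testBit_rev (κ : Fin (2 ^ h)) (i : ℕ) (hi : i < h) :
    (2 ^ h - (κ.val + 1)).testBit i = !κ.val.testBit i := by
  rw [Nat.testBit_two_pow_sub_succ κ.isLt]
  simp [hi]

theorem M_bot_left (u : Fin (2 ^ h)) (c : Core h) : M (.core (.bot u)) (.core c) = true := by
  have h1 := c.pot_le
  have h2 := Nat.two_pow_pos h
  have h3 : (Core.bot u : Core h).pot = 0 := rfl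
  simp only [M]
  exact decide_eq_true (by omega)

theorem M_bot_right (u : Fin (2 ^ h)) (c : Core h) : M (.core c) (.core (.bot u)) = true := by
  have h1 := c.pot_le
  have h2 := Nat.two_pow_pos h
  have h3 : (Core.bot u : Core h).pot = 0 := rfl
  simp only [M]
  exact decide_eq_true (by omega)

theorem lt_bot (f : Core h) (u : Fin (2 ^ h)) (hf : f.ty ≠ .bot) :
    Line.core f < Line.core (.bot u) := by
  have h2 := Nat.two_pow_pos h
  rcases f with w | ⟨a, i⟩ | ⟨a, i⟩ | w
  · simp only [Line.lt_iff, Line.major, Line.minor, Core.major, Core.minor]; omega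
  · have := a.isLt
    simp only [Line.lt_iff, Line.major, Line.minor, Core.major, Core.minor]; omega
  · have := a.isLt
    simp only [Line.lt_iff, Line.major, Line.minor, Core.major, Core.minor]; omega
  · exact absurd rfl hf

theorem botMk_holds_eq_false (f : Core h) (hf : f.ty ≠ .bot) : botMk.holds f = false := by
  simp [Mk.holds, botMk, hf]

theorem holds_bot_eq_false (m : Mk) (u : Fin (2 ^ h)) (hm : m.ty ≠ .bot) :
    m.holds (Core.bot u : Core h) = false := by
  simp [Mk.holds, Core.ty, Ne.symm hm]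

theorem botMk_holds_bot (u : Fin (2 ^ h)) : botMk.holds (Core.bot u : Core h) = true := by
  simp [Mk.holds, botMk, Core.ty]

theorem lineOK_bot (κ u : Fin (2 ^ h)) : LineOK κ u (.core (.bot u)) := by
  simp [LineOK, Line.ix, Line.reg]

theorem lineOK_top (κ u : Fin (2 ^ h)) : LineOK κ u (.core (.top u)) := by
  simp [LineOK, Line.ix, Line.reg]

theorem lineOK_S (κ u : Fin (2 ^ h)) (i : Fin (h + 1)) : LineOK κ u (.core (.S κ i)) := by
  simp [LineOK, Line.ix, Line.reg]

theorem lineOK_T (κ u : Fin (2 ^ h)) (i : Fin (h + 1)) : LineOK κ u (.core (.T κ i)) := by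
  simp [LineOK, Line.ix, Line.reg]

section chain

variable (hh : 1 ≤ h) (B : Line h → Line h → Bool)
  (hfree : ∀ rows cols : Fin 66 → Line h, StrictMono rows → StrictMono cols →
      ¬ ∀ i j, B (rows i) (cols j) = Hpat i j)
  (κ u : Fin (2 ^ h)) (hB : ∀ p q, Sel κ u p q → B p q = M p q)

include hh hfree hB

/-- A horizontal step of the chain. -/
theorem hstep (g : Grp h) (hg : g.hor = true) (f s t : Core h)
    (hf : LineOK κ u (.core f)) (hs : LineOK κ.rev (u + κ) (.core s))
    (ht : LineOK κ.rev (u + κ) (.core t))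
    (hts : Line.core t < Line.core s) (hfb : f.ty ≠ .bot) (m6 : g.fix.ty ≠ .bot)
    (m1 : g.fix.holds f = true) (m2 : g.tgt.holds t = true) (m3 : g.src.holds t = false)
    (m4 : g.tgt.holds s = false) (m5 : g.src.holds s = true)
    (b : B (.core f) (.core s) = true) : B (.core f) (.core t) = true := by
  refine gadget hh B hfree κ u hB g f (.bot u) t s (lt_bot f u hfb) hts hf (lineOK_bot κ u) ht hs
    ?_ ?_ ?_ ?_ ?_ ?_ ?_ ?_ b ?_ ?_
  · simpa [Grp.rowMk, hg] using m1
  · simpa [Grp.rowMk, hg] using botMk_holds_eq_false f hfb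
  · simpa [Grp.rowMk, hg] using holds_bot_eq_false g.fix u m6
  · simpa [Grp.rowMk, hg] using botMk_holds_bot u
  · simpa [Grp.colMk, hg] using m2
  · simpa [Grp.colMk, hg] using m3
  · simpa [Grp.colMk, hg] using m4
  · simpa [Grp.colMk, hg] using m5
  · rw [hB _ _ ⟨lineOK_bot κ u, ht, by simp [Line.reg]⟩, M_bot_left]
  · rw [hB _ _ ⟨lineOK_bot κ u, hs, by simp [Line.reg]⟩, M_bot_left]

/-- A vertical step of the chain. -/
theorem vstep (g : Grp h) (hg : g.hor = false) (f s t : Core h)
    (hf : LineOK κ.rev (u + κ) (.core f)) (hs : LineOK κ u (.core s))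
    (ht : LineOK κ u (.core t))
    (hts : Line.core t < Line.core s) (hfb : f.ty ≠ .bot) (m6 : g.fix.ty ≠ .bot)
    (m1 : g.fix.holds f = true) (m2 : g.tgt.holds t = true) (m3 : g.src.holds t = false)
    (m4 : g.tgt.holds s = false) (m5 : g.src.holds s = true)
    (b : B (.core s) (.core f) = true) : B (.core t) (.core f) = true := by
  refine gadget hh B hfree κ u hB g t s f (.bot (u + κ)) hts (lt_bot f _ hfb) ht hs hf
    (lineOK_bot _ _) ?_ ?_ ?_ ?_ ?_ ?_ ?_ ?_ ?_ b ?_
  · simpa [Grp.rowMk, hg] using m2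
  · simpa [Grp.rowMk, hg] using m3
  · simpa [Grp.rowMk, hg] using m4
  · simpa [Grp.rowMk, hg] using m5
  · simpa [Grp.colMk, hg] using m1
  · simpa [Grp.colMk, hg] using botMk_holds_eq_false f hfb
  · simpa [Grp.colMk, hg] using holds_bot_eq_false g.fix (u + κ) m6
  · simpa [Grp.colMk, hg] using botMk_holds_bot (u + κ)
  · rw [hB _ _ ⟨ht, lineOK_bot _ _, by simp [Line.reg]⟩, M_bot_right]
  · rw [hB _ _ ⟨hs, lineOK_bot _ _, by simp [Line.reg]⟩, M_bot_right]

theorem chainT (i : Fin (h + 1)) : B (.core (.T κ i)) (.core (.T κ.rev i)) = true := by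
  induction i using Fin.reverseInduction with
  | last =>
    refine hstep hh B hfree κ u hB .start rfl (.T κ (Fin.last h)) (.bot (u + κ))
      (.T κ.rev (Fin.last h)) (lineOK_T _ _ _) (lineOK_bot _ _) (lineOK_T _ _ _)
      (lt_bot _ _ (by simp [Core.ty])) (by simp [Core.ty]) (by simp [Grp.fix])
      (by simp [Mk.holds, Grp.fix, Core.ty]) (by simp [Mk.holds, Grp.tgt, Core.ty])
      (by simp [Mk.holds, Grp.src, Core.ty]) (by simp [Mk.holds, Grp.tgt, Core.ty])
      (by simp [Mk.holds, Grp.src, Core.ty]) ?_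
    rw [hB _ _ ⟨lineOK_T _ _ _, lineOK_bot _ _, by simp [Line.reg]⟩, M_bot_right]
  | cast i ih =>
    have h1 : B (.core (.T κ i.castSucc)) (.core (.T κ.rev i.succ)) = true := by
      refine vstep hh B hfree κ u hB (.Tt i) rfl (.T κ.rev i.succ) (.T κ i.succ)
        (.T κ i.castSucc) (lineOK_T _ _ _) (lineOK_T _ _ _) (lineOK_T _ _ _)
        ?_ (by simp [Core.ty]) (by simp [Grp.fix])
        (by simp [Mk.holds, Grp.fix, Core.ty]) (by simp [Mk.holds, Grp.tgt, Core.ty])
        (by simp [Mk.holds, Grp.src, Core.ty]) (by simp [Mk.holds, Grp.tgt, Core.ty])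
        (by simp [Mk.holds, Grp.src, Core.ty]) ih
      simp [Line.lt_iff, Line.major, Line.minor, Core.major, Core.minor]
    have hbit := testBit_rev κ i.val i.isLt
    refine hstep hh B hfree κ u hB (.Tr i (κ.val.testBit i.val)) rfl (.T κ i.castSucc)
      (.T κ.rev i.succ) (.T κ.rev i.castSucc) (lineOK_T _ _ _) (lineOK_T _ _ _) (lineOK_T _ _ _)
      ?_ (by simp [Core.ty]) (by simp [Grp.fix])
      (by simp [Mk.holds, Grp.fix, Core.ty, Core.half])
      (by simp [Mk.holds, Grp.tgt, Core.ty, Core.half, hbit])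
      (by simp [Mk.holds, Grp.src, Core.ty]) (by simp [Mk.holds, Grp.tgt, Core.ty])
      (by simp [Mk.holds, Grp.src, Core.ty]) h1
    simp [Line.lt_iff, Line.major, Line.minor, Core.major, Core.minor]

theorem chainS (i : Fin (h + 1)) : B (.core (.S κ i)) (.core (.S κ.rev i)) = true := by
  induction i using Fin.induction with
  | zero =>
    have h0 := chainT hh B hfree κ u hB 0
    have h1 : B (.core (.S κ 0)) (.core (.T κ.rev 0)) = true := by
      refine vstep hh B hfree κ u hB .mid1 rfl (.T κ.rev 0) (.T κ 0)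
        (.S κ 0) (lineOK_T _ _ _) (lineOK_T _ _ _) (lineOK_S _ _ _)
        ?_ (by simp [Core.ty]) (by simp [Grp.fix])
        (by simp [Mk.holds, Grp.fix, Core.ty]) (by simp [Mk.holds, Grp.tgt, Core.ty])
        (by simp [Mk.holds, Grp.src, Core.ty]) (by simp [Mk.holds, Grp.tgt, Core.ty])
        (by simp [Mk.holds, Grp.src, Core.ty]) h0
      simp [Line.lt_iff, Line.major, Line.minor, Core.major, Core.minor]
    refine hstep hh B hfree κ u hB .mid2 rfl (.S κ 0)
      (.T κ.rev 0) (.S κ.rev 0) (lineOK_S _ _ _) (lineOK_T _ _ _) (lineOK_S _ _ _)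
      ?_ (by simp [Core.ty]) (by simp [Grp.fix])
      (by simp [Mk.holds, Grp.fix, Core.ty]) (by simp [Mk.holds, Grp.tgt, Core.ty])
      (by simp [Mk.holds, Grp.src, Core.ty]) (by simp [Mk.holds, Grp.tgt, Core.ty])
      (by simp [Mk.holds, Grp.src, Core.ty]) h1
    simp [Line.lt_iff, Line.major, Line.minor, Core.major, Core.minor]
  | succ i ih =>
    have hbit := testBit_rev κ i.val i.isLt
    have hi := i.isLt
    have h1 : B (.core (.S κ i.succ)) (.core (.S κ.rev i.castSucc)) = true := by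
      refine vstep hh B hfree κ u hB (.Sr i (!κ.val.testBit i.val)) rfl (.S κ.rev i.castSucc)
        (.S κ i.castSucc) (.S κ i.succ) (lineOK_S _ _ _) (lineOK_S _ _ _) (lineOK_S _ _ _)
        ?_ (by simp [Core.ty]) (by simp [Grp.fix])
        (by simp [Mk.holds, Grp.fix, Core.ty, Core.half, hbit])
        (by simp [Mk.holds, Grp.tgt, Core.ty])
        (by simp [Mk.holds, Grp.src, Core.ty]) (by simp [Mk.holds, Grp.tgt, Core.ty])
        (by simp [Mk.holds, Grp.src, Core.ty, Core.half]) ih
      simp only [Line.lt_iff, Line.major, Line.minor, Core.major, Core.minor, Fin.val_succ,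
        Fin.val_castSucc, true_and]
      omega
    refine hstep hh B hfree κ u hB (.St i) rfl (.S κ i.succ)
      (.S κ.rev i.castSucc) (.S κ.rev i.succ) (lineOK_S _ _ _) (lineOK_S _ _ _) (lineOK_S _ _ _)
      ?_ (by simp [Core.ty]) (by simp [Grp.fix])
      (by simp [Mk.holds, Grp.fix, Core.ty]) (by simp [Mk.holds, Grp.tgt, Core.ty])
      (by simp [Mk.holds, Grp.src, Core.ty]) (by simp [Mk.holds, Grp.tgt, Core.ty])
      (by simp [Mk.holds, Grp.src, Core.ty]) h1
    simp only [Line.lt_iff, Line.major, Line.minor, Core.major, Core.minor, Fin.val_succ,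
      Fin.val_castSucc, true_and]
    omega

theorem chain_false : False := by
  have h0 := chainS hh B hfree κ u hB (Fin.last h)
  have h1 : B (.core (.top u)) (.core (.S κ.rev (Fin.last h))) = true := by
    refine vstep hh B hfree κ u hB .fin rfl (.S κ.rev (Fin.last h)) (.S κ (Fin.last h))
      (.top u) (lineOK_S _ _ _) (lineOK_S _ _ _) (lineOK_top _ _)
      ?_ (by simp [Core.ty]) (by simp [Grp.fix])
      (by simp [Mk.holds, Grp.fix, Core.ty]) (by simp [Mk.holds, Grp.tgt, Core.ty])
      (by simp [Mk.holds, Grp.src, Core.ty]) (by simp [Mk.holds, Grp.tgt, Core.ty])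
      (by simp [Mk.holds, Grp.src, Core.ty]) h0
    simp [Line.lt_iff, Line.major, Line.minor, Core.major, Core.minor]
  rw [hB _ _ ⟨lineOK_top _ _, lineOK_S _ _ _, by simp [Line.reg]⟩] at h1
  have h2 := Nat.two_pow_pos h
  have h3 : κ.rev.val / 2 ^ h = 0 := Nat.div_eq_of_lt κ.rev.isLt
  simp only [M, Core.pot, decide_eq_true_eq, Fin.val_last, h3] at h1
  omega

end chain

/-- (P1) Every pattern-free `B` differs from `M` somewhere on each obstruction set. -/
theorem far_core (hh : 1 ≤ h) (B : Line h → Line h → Bool)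
    (hfree : ∀ rows cols : Fin 66 → Line h, StrictMono rows → StrictMono cols →
      ¬ ∀ i j, B (rows i) (cols j) = Hpat i j)
    (x : Fin (2 ^ h) × Fin (2 ^ h)) : ∃ p q, Sel x.1 x.2 p q ∧ M p q ≠ B p q := by
  by_contra hcon
  push Not at hcon
  exact chain_false hh B hfree x.1 x.2 (fun p q hs => (hcon p q hs).symm)

end Crest.Agent.S0066Aux
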