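import Crest.Prelude.Def_OrderedMatrix

set_option autoImplicit false

namespace Crest.Agent.S0066Aux

open Crest.CombinatoricsR.OrderedMatrix

/-- If every copy of `H` in `A` has its top-left cell in `Sp`, there are at most
`|Sp| * n ^ k * n ^ k` copies. -/
theorem count_le {k n : ℕ} (H : Fin (k + 1) → Fin (k + 1) → Bool) (A : Fin n → Fin n → Bool)
    (Sp : Finset (Fin n × Fin n))
    (hSp : ∀ rows cols : Fin (k + 1) → Fin n, StrictMono rows → StrictMono cols →
      (∀ i j, A (rows i) (cols j) = H i j) → (rows 0, cols 0) ∈ Sp) :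
    orderedCopyCount H A ≤ Sp.card * n ^ k * n ^ k := by
  classical
  unfold orderedCopyCount
  let f : {rc : (Fin (k + 1) → Fin n) × (Fin (k + 1) → Fin n) //
      StrictMono rc.1 ∧ StrictMono rc.2 ∧ ∀ i j : Fin (k + 1), A (rc.1 i) (rc.2 j) = H i j} →
      ({x // x ∈ Sp} × (Fin k → Fin n)) × (Fin k → Fin n) :=
    fun rc => ((⟨(rc.1.1 0, rc.1.2 0), hSp rc.1.1 rc.1.2 rc.2.1 rc.2.2.1 rc.2.2.2⟩,
      Fin.tail rc.1.1), Fin.tail rc.1.2)
  have hf : Function.Injective f := by
    intro a b hab
    have h1 : a.1.1 0 = b.1.1 0 := by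
      have := congrArg (fun t => t.1.1.1.1) hab
      exact this
    have h2 : a.1.2 0 = b.1.2 0 := by
      have := congrArg (fun t => t.1.1.1.2) hab
      exact this
    have h3 : Fin.tail a.1.1 = Fin.tail b.1.1 := by
      have := congrArg (fun t => t.1.2) hab
      exact this
    have h4 : Fin.tail a.1.2 = Fin.tail b.1.2 := by
      have := congrArg (fun t => t.2) hab
      exact this
    apply Subtype.ext
    apply Prod.ext
    · rw [← Fin.cons_self_tail a.1.1, ← Fin.cons_self_tail b.1.1, h1, h3]
    · rw [← Fin.cons_self_tail a.1.2, ← Fin.cons_self_tail b.1.2, h2, h4]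
  have := Fintype.card_le_of_injective f hf
  simpa [Fintype.card_prod, Fintype.card_pi, Fintype.card_coe] using this

/-- If each index `x : ι` forces a differing cell labelled by `x`, and labels are unique,
there are at least `|ι|` differing cells. -/
theorem diff_ge {n : ℕ} {ι : Type} [Fintype ι] (A B : Fin n → Fin n → Bool)
    (Sel : ι → Fin n → Fin n → Prop)
    (hinj : ∀ x y p q, Sel x p q → Sel y p q → x = y)
    (hex : ∀ x, ∃ p q, Sel x p q ∧ A p q ≠ B p q) :
    Fintype.card ι ≤
      (Finset.univ.filter (fun rc : Fin n × Fin n => A rc.1 rc.2 ≠ B rc.1 rc.2)).card := by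
  classical
  choose p q hpq using hex
  rw [← Finset.card_univ]
  apply Finset.card_le_card_of_injOn (fun x => (p x, q x))
  · intro x _
    simpa using (hpq x).2
  · intro x _ y _ hxy
    have h1 : p x = p y := congrArg Prod.fst hxy
    have h2 : q x = q y := congrArg Prod.snd hxy
    apply hinj x y (p x) (q x) (hpq x).1
    rw [h1, h2]
    exact (hpq y).1

/-- Transfer from a finite linear order `L` with `n` elements to `Fin n`. -/
theorem transfer {L : Type} [LinearOrder L] [Fintype L] {n k N : ℕ}
    (hcard : Fintype.card L = n) (H : Fin (k + 1) → Fin (k + 1) → Bool) (M : L → L → Bool)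
    {ι : Type} [Fintype ι] (Sel : ι → L → L → Prop)
    (hinj : ∀ x y p q, Sel x p q → Sel y p q → x = y)
    (hfar : ∀ B : L → L → Bool,
      (∀ rows cols : Fin (k + 1) → L, StrictMono rows → StrictMono cols →
        ¬ ∀ i j, B (rows i) (cols j) = H i j) →
      ∀ x, ∃ p q, Sel x p q ∧ M p q ≠ B p q)
    (sp : Fin N → L × L)
    (hsp : ∀ rows cols : Fin (k + 1) → L, StrictMono rows → StrictMono cols →
      (∀ i j, M (rows i) (cols j) = H i j) → ∃ a, (rows 0, cols 0) = sp a) :
    ∃ A : Fin n → Fin n → Bool,
      (∀ B : Fin n → Fin n → Bool, orderedCopyCount H B = 0 →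
        Fintype.card ι ≤
          (Finset.univ.filter (fun rc : Fin n × Fin n => A rc.1 rc.2 ≠ B rc.1 rc.2)).card) ∧
      orderedCopyCount H A ≤ N * n ^ k * n ^ k := by
  classical
  let e : L ≃o Fin n := (Fintype.orderIsoFinOfCardEq L hcard).symm
  refine ⟨fun i j => M (e.symm i) (e.symm j), ?_, ?_⟩
  · intro B hB
    refine diff_ge (fun i j => M (e.symm i) (e.symm j)) B
      (fun x i j => Sel x (e.symm i) (e.symm j)) ?_ ?_
    · intro x y p q hx hy
      exact hinj x y _ _ hx hy
    · intro x
      have hfree : ∀ rows cols : Fin (k + 1) → L, StrictMono rows → StrictMono cols →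
          ¬ ∀ i j, (fun p q => B (e p) (e q)) (rows i) (cols j) = H i j := by
        intro rows cols hr hc hall
        unfold orderedCopyCount at hB
        rw [Fintype.card_eq_zero_iff] at hB
        exact hB.false ⟨(fun i => e (rows i), fun j => e (cols j)),
          e.strictMono.comp hr, e.strictMono.comp hc, hall⟩
      obtain ⟨p, q, h1, h2⟩ := hfar (fun p q => B (e p) (e q)) hfree x
      refine ⟨e p, e q, ?_, ?_⟩
      · simpa using h1
      · simpa using h2
  · have h1 := count_le H (fun i j => M (e.symm i) (e.symm j))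
      (Finset.univ.image (fun a : Fin N => (e (sp a).1, e (sp a).2))) (by
        intro rows cols hr hc hall
        obtain ⟨a, ha⟩ := hsp (fun i => e.symm (rows i)) (fun j => e.symm (cols j))
          (e.symm.strictMono.comp hr) (e.symm.strictMono.comp hc) hall
        rw [Finset.mem_image]
        refine ⟨a, Finset.mem_univ _, ?_⟩
        rw [← ha]
        simp)
    refine le_trans h1 ?_
    have h2 : (Finset.univ.image (fun a : Fin N => (e (sp a).1, e (sp a).2))).card ≤ N := by
      refine le_trans Finset.card_image_le ?_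
      simp
    exact Nat.mul_le_mul_right _ (Nat.mul_le_mul_right _ h2)

end Crest.Agent.S0066Aux
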