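import Crest.Agent.S0066Aux.Defs

set_option autoImplicit false

namespace Crest.Agent.S0066Aux

variable {h : ℕ}

/-- The obstruction sets are pairwise disjoint. -/
theorem sel_inj (x y : Fin (2 ^ h) × Fin (2 ^ h)) (p q : Line h)
    (hx : Sel x.1 x.2 p q) (hy : Sel y.1 y.2 p q) : x = y := by
  obtain ⟨κ, u⟩ := x
  obtain ⟨κ', u'⟩ := y
  obtain ⟨hp, hq, hn⟩ := hx
  obtain ⟨hp', hq', -⟩ := hy
  simp only [LineOK] at hp hq hp' hq'
  by_cases h1 : p.reg = true
  · have h2 : q.reg = false := by
      cases hq2 : q.reg
      · rfl
      · exact absurd ⟨h1, hq2⟩ hn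
    simp only [h1, h2, if_true, Bool.false_eq_true, if_false] at hp hq hp' hq'
    have hk : κ = κ' := hp.symm.trans hp'
    subst hk
    have hu : u + κ = u' + κ := hq.symm.trans hq'
    rw [add_right_cancel hu]
  · have h1' : p.reg = false := by simpa using h1
    simp only [h1', Bool.false_eq_true, if_false] at hp hp'
    have hu : u = u' := hp.symm.trans hp'
    subst hu
    by_cases h2 : q.reg = true
    · simp only [h2, if_true] at hq hq'
      have : κ.rev = κ'.rev := hq.symm.trans hq'
      rw [Fin.rev_inj.mp this]
    · have h2' : q.reg = false := by simpa using h2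
      simp only [h2', Bool.false_eq_true, if_false] at hq hq'
      have : u + κ = u + κ' := hq.symm.trans hq'
      rw [add_left_cancel this]

end Crest.Agent.S0066Aux
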