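import Crest.Agent.S0066Aux.Order

set_option autoImplicit false

namespace Crest.Agent.S0066Aux

variable {h : ℕ}

namespace Cl

theorem M_jk_left (j : Fin (372 * h - 10)) (u : Fin (2 ^ h)) (q : Line h) :
    M (.jk j u) q = false := by
  cases q <;> rfl

theorem M_jk_right (p : Line h) (j : Fin (372 * h - 10)) (u : Fin (2 ^ h)) :
    M p (.jk j u) = false := by
  cases p <;> rfl

/-- Core lines are an initial segment of the order. -/
theorem core_of_lt_core {p : Line h} {c : Core h} (hlt : p < .core c) :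
    ∃ c', p = .core c' := by
  rcases p with c' | ⟨g, r, u⟩ | ⟨j, u⟩
  · exact ⟨c', rfl⟩
  · exfalso
    have := c.major_le
    simp only [Line.lt_iff, Line.major, Line.minor] at hlt
    omega
  · exfalso
    have := c.major_le
    simp only [Line.lt_iff, Line.major, Line.minor] at hlt
    omega

/-- A row with a one is core or frame. -/
theorem row_cases {p q : Line h} (hM : M p q = true) :
    (∃ c, p = .core c) ∨ ∃ g r u, p = .fr g r u := by
  rcases p with c' | ⟨g, r, u⟩ | ⟨j, u⟩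
  · exact Or.inl ⟨c', rfl⟩
  · exact Or.inr ⟨g, r, u, rfl⟩
  · rw [M_jk_left] at hM; exact absurd hM (by simp)

/-- A column with a one is core or frame. -/
theorem col_cases {p q : Line h} (hM : M p q = true) :
    (∃ c, q = .core c) ∨ ∃ g r u, q = .fr g r u := by
  rcases q with c' | ⟨g, r, u⟩ | ⟨j, u⟩
  · exact Or.inl ⟨c', rfl⟩
  · exact Or.inr ⟨g, r, u, rfl⟩
  · rw [M_jk_right] at hM; exact absurd hM (by simp)

/-- The threshold structure of the core block excludes `[[0,1],[1,0]]`. -/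
theorem no_alt (c0 c1 d0 d1 : Core h)
    (h00 : M (.core c0) (.core d0) = false) (h01 : M (.core c0) (.core d1) = true)
    (h10 : M (.core c1) (.core d0) = true) (h11 : M (.core c1) (.core d1) = false) : False := by
  simp only [M, decide_eq_true_eq, decide_eq_false_iff_not] at h00 h01 h10 h11
  omega

theorem mk_contra (m2 m3 : Mk) (c0 c1 c2 : Core h)
    (a : m2.holds c0 = true) (b : m2.holds c1 = false) (c : m2.holds c2 = true)
    (d : m3.holds c0 = false) (e : m3.holds c1 = true) (f : m3.holds c2 = true) : False := by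
  simp only [Mk.holds, Bool.and_eq_true, decide_eq_true_eq, Bool.or_eq_true, Bool.not_eq_true',
    Bool.and_eq_false_iff, decide_eq_false_iff_not, Bool.or_eq_false_iff,
    Bool.not_eq_false'] at a b c d e f
  obtain ⟨a1, a2⟩ := a
  obtain ⟨c1', -⟩ := c
  obtain ⟨e1, -⟩ := e
  obtain ⟨f1, -⟩ := f
  have t23 : m2.ty = m3.ty := by rw [← c1', f1]
  rcases d with d | ⟨d1, d2⟩
  · exact d (by rw [a1, t23])
  rcases b with b | ⟨b1, b2⟩
  · exact b (by rw [e1, t23])
  rcases a2 with a2 | a2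
  · rw [a2] at b1; exact absurd b1 (by simp)
  · rw [a2] at d2; exact absurd d2 (by simp)

theorem rowMk_ty_ne (g : Grp h) : (g.rowMk false).ty ≠ (g.rowMk true).ty := by
  rcases g with ⟨i, b⟩ | i | ⟨i, b⟩ | i | _ | _ | _ | _ <;>
    simp [Grp.rowMk, Grp.hor, Grp.fix, Grp.src, Grp.tgt, botMk]

theorem colMk_ty_ne (g : Grp h) : (g.colMk false).ty ≠ (g.colMk true).ty := by
  rcases g with ⟨i, b⟩ | i | ⟨i, b⟩ | i | _ | _ | _ | _ <;>
    simp [Grp.colMk, Grp.hor, Grp.fix, Grp.src, Grp.tgt, botMk]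

theorem holds_ty {m : Mk} {c : Core h} (hm : m.holds c = true) : c.ty = m.ty := by
  simp only [Mk.holds, Bool.and_eq_true, decide_eq_true_eq] at hm
  exact hm.1

/-- Two frame lines of the same group in increasing order with different rows of `M`
have roles `false`, `true`. -/
theorem roles {g : Grp h} {r r' : Bool} {u u' : Fin (2 ^ h)}
    (hlt : (Line.fr g r u : Line h) < .fr g r' u') (hne : r ≠ r') : r = false ∧ r' = true := by
  simp only [Line.lt_iff, Line.major, Line.minor] at hlt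
  cases r <;> cases r' <;> simp_all

end Cl

open Cl in
/-- Every copy of the 4 × 4 pattern in `M` is in the intended configuration of some group. -/
theorem classify (p0 p1 p2 p3 q0 q1 q2 q3 : Line h)
    (hp01 : p0 < p1) (hp12 : p1 < p2) (hp23 : p2 < p3)
    (hq01 : q0 < q1) (hq12 : q1 < q2) (hq23 : q2 < q3)
    (h00 : M p0 q0 = false) (h01 : M p0 q1 = true) (h02 : M p0 q2 = true) (h03 : M p0 q3 = false)
    (h10 : M p1 q0 = true) (h11 : M p1 q1 = true) (h12 : M p1 q2 = false) (h13 : M p1 q3 = true)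
    (h20 : M p2 q0 = true) (h21 : M p2 q1 = false) (h22 : M p2 q2 = true) (h23 : M p2 q3 = true)
    (h30 : M p3 q0 = false) (h31 : M p3 q1 = true) (h32 : M p3 q2 = true) (h33 : M p3 q3 = true) :
    ∃ (g : Grp h) (c0 c1 d0 d1 : Core h),
      p0 = .core c0 ∧ p1 = .core c1 ∧ q0 = .core d0 ∧ q1 = .core d1 ∧
      (g.rowMk false).holds c0 = true ∧ (g.rowMk true).holds c1 = true ∧
      (g.colMk false).holds d0 = true ∧ (g.colMk true).holds d1 = true := by
  rcases row_cases h33 with ⟨c3, rfl⟩ | ⟨g, r3, u3, rfl⟩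
  · -- `p3` core: all rows are core
    exfalso
    obtain ⟨c2, rfl⟩ := core_of_lt_core hp23
    obtain ⟨c1, rfl⟩ := core_of_lt_core hp12
    obtain ⟨c0, rfl⟩ := core_of_lt_core hp01
    rcases col_cases h11 with ⟨d1, rfl⟩ | ⟨g1, s1, v1, rfl⟩
    · obtain ⟨d0, rfl⟩ := core_of_lt_core hq01
      exact no_alt c0 c2 d0 d1 h00 h01 h20 h21
    · rcases col_cases h22 with ⟨d2, rfl⟩ | ⟨g2, s2, v2, rfl⟩
      · obtain ⟨d1, hd1⟩ := core_of_lt_core hq12
        exact absurd hd1 (by simp)
      rcases col_cases h33 with ⟨d3, rfl⟩ | ⟨g3, s3, v3, rfl⟩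
      · obtain ⟨d2, hd2⟩ := core_of_lt_core hq23
        exact absurd hd2 (by simp)
      exact mk_contra (g2.rowMk s2) (g3.rowMk s3) c0 c1 c2 h02 h12 h22 h03 h13 h23
  rcases col_cases h33 with ⟨d3, rfl⟩ | ⟨g', s3, v3, rfl⟩
  · -- `q3` core: all columns are core
    exfalso
    obtain ⟨d2, rfl⟩ := core_of_lt_core hq23
    obtain ⟨d1, rfl⟩ := core_of_lt_core hq12
    obtain ⟨d0, rfl⟩ := core_of_lt_core hq01
    rcases row_cases h11 with ⟨c1, rfl⟩ | ⟨g1, r1, u1, rfl⟩
    · obtain ⟨c0, rfl⟩ := core_of_lt_core hp01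
      exact no_alt c0 c1 d0 d2 h00 h02 h10 h12
    · rcases row_cases h22 with ⟨c2, rfl⟩ | ⟨g2, r2, u2, rfl⟩
      · obtain ⟨c1, hc1⟩ := core_of_lt_core hp12
        exact absurd hc1 (by simp)
      exact mk_contra (g2.colMk r2) (g.colMk r3) d0 d1 d2 h20 h21 h22 h30 h31 h32
  -- both `p3`, `q3` frames, of the same group
  have hg : g = g' := by simpa [M] using h33
  subst hg
  rcases row_cases h22 with ⟨c2, rfl⟩ | ⟨g2, r2, u2, rfl⟩
  · -- `p2` core
    exfalso
    obtain ⟨c1, rfl⟩ := core_of_lt_core hp12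
    obtain ⟨c0, rfl⟩ := core_of_lt_core hp01
    rcases col_cases h22 with ⟨d2, rfl⟩ | ⟨g2', s2, v2, rfl⟩
    · obtain ⟨d1, rfl⟩ := core_of_lt_core hq12
      obtain ⟨d0, rfl⟩ := core_of_lt_core hq01
      exact no_alt c0 c1 d0 d2 h00 h02 h10 h12
    · -- `q2` frame of group `g`
      have hg2 : g = g2' := by simpa [M] using h32
      subst hg2
      have hne : s2 ≠ s3 := by
        rintro rfl
        have e1 : M (.core c0) (.fr g s2 v2) = M (.core c0) (.fr g s2 v3) := rfl
        rw [h02, h03] at e1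
        exact absurd e1 (by simp)
      obtain ⟨rfl, rfl⟩ := roles hq23 hne
      have t1 : c2.ty = (g.rowMk false).ty := holds_ty h22
      have t2 : c2.ty = (g.rowMk true).ty := holds_ty h23
      exact rowMk_ty_ne g (t1.symm.trans t2)
  -- `p2` frame of group `g`
  have hg2 : g2 = g := by simpa [M] using h23
  subst hg2
  have hner : r2 ≠ r3 := by
    rintro rfl
    have e1 : M (.fr g2 r2 u2) q0 = M (.fr g2 r2 u3) q0 := by cases q0 <;> rfl
    rw [h20, h30] at e1
    exact absurd e1 (by simp)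
  obtain ⟨rfl, rfl⟩ := roles hp23 hner
  rcases col_cases h22 with ⟨d2, rfl⟩ | ⟨g2', s2, v2, rfl⟩
  · exfalso
    have t1 : d2.ty = (g2.colMk false).ty := holds_ty h22
    have t2 : d2.ty = (g2.colMk true).ty := holds_ty h32
    exact colMk_ty_ne g2 (t1.symm.trans t2)
  have hg2 : g2 = g2' := by simpa [M] using h32
  subst hg2
  have hnes : s2 ≠ s3 := by
    rintro rfl
    have e1 : M p0 (.fr g2 s2 v2) = M p0 (.fr g2 s2 v3) := by cases p0 <;> rfl
    rw [h02, h03] at e1
    exact absurd e1 (by simp)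
  obtain ⟨rfl, rfl⟩ := roles hq23 hnes
  -- `p1` is core
  rcases row_cases h11 with ⟨c1, rfl⟩ | ⟨g1, r1, u1, rfl⟩
  swap
  · exfalso
    have hg1 : g1 = g2 := by simpa [M] using h13
    subst hg1
    simp [M] at h12
  obtain ⟨c0, rfl⟩ := core_of_lt_core hp01
  rcases col_cases h11 with ⟨d1, rfl⟩ | ⟨g1, s1, v1, rfl⟩
  swap
  · exfalso
    have hg1 : g2 = g1 := by simpa [M] using h31
    subst hg1
    simp [M] at h21
  obtain ⟨d0, rfl⟩ := core_of_lt_core hq01
  exact ⟨g2, c0, c1, d0, d1, rfl, rfl, rfl, rfl, h02, h13, h20, h31⟩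

end Crest.Agent.S0066Aux
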