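import Crest.Agent.S0066Aux.Sound
import Crest.Agent.S0066Aux.Classify

set_option autoImplicit false

namespace Crest.Agent.S0066Aux

variable {h : ℕ}

/-- (P2) Every copy of the pattern in `M` has its top-left cell at a special cell. -/
theorem copy_special (rows cols : Fin 66 → Line h) (hr : StrictMono rows) (hc : StrictMono cols)
    (hM : ∀ i j, M (rows i) (cols j) = Hpat i j) :
    ∃ a : Fin (2 ^ h), (rows 0, cols 0) = (Line.core (.S a 0), Line.core (.S a.rev 0)) := by
  obtain ⟨g, c0, c1, d0, d1, hp0, hp1, hq0, hq1, hr0, hr1, hc0, hc1⟩ :=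
    classify (rows 0) (rows 1) (rows 2) (rows 3) (cols 0) (cols 1) (cols 2) (cols 3)
      (hr (by decide)) (hr (by decide)) (hr (by decide))
      (hc (by decide)) (hc (by decide)) (hc (by decide))
      (by rw [hM]; rfl) (by rw [hM]; rfl) (by rw [hM]; rfl) (by rw [hM]; rfl)
      (by rw [hM]; rfl) (by rw [hM]; rfl) (by rw [hM]; rfl) (by rw [hM]; rfl)
      (by rw [hM]; rfl) (by rw [hM]; rfl) (by rw [hM]; rfl) (by rw [hM]; rfl)
      (by rw [hM]; rfl) (by rw [hM]; rfl) (by rw [hM]; rfl) (by rw [hM]; rfl)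
  have h00 : M (rows 0) (cols 0) = false := by rw [hM]; rfl
  have h01 : M (rows 0) (cols 1) = true := by rw [hM]; rfl
  have h10 : M (rows 1) (cols 0) = true := by rw [hM]; rfl
  have hp01 : rows 0 < rows 1 := hr (by decide)
  have hq01 : cols 0 < cols 1 := hc (by decide)
  rw [hp0, hq0] at h00
  rw [hp0, hq1] at h01
  rw [hp1, hq0] at h10
  rw [hp0, hp1] at hp01
  rw [hq0, hq1] at hq01
  simp only [M, decide_eq_false_iff_not, decide_eq_true_eq] at h00 h01 h10
  cases hg : g.hor with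
  | true =>
    simp only [Grp.rowMk, Grp.colMk, hg, if_true, Bool.false_eq_true, if_false] at hr0 hr1 hc0 hc1
    obtain ⟨-, a, hf, ht⟩ := sound g c0 d1 d0 hr0 hc1 hc0 hq01 h01 h00
    exact ⟨a, by rw [hp0, hq0, hf, ht]⟩
  | false =>
    simp only [Grp.rowMk, Grp.colMk, hg, if_true, Bool.false_eq_true, if_false] at hr0 hr1 hc0 hc1
    obtain ⟨hg2, -⟩ := sound g d0 c1 c0 hc0 hr1 hr0 hp01 (by omega) (by omega)
    rw [hg2] at hg
    simp [Grp.hor] at hg

end Crest.Agent.S0066Aux
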