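import Mathlib

/-!
# S0066: definitions of the construction

`h` is the depth, `N = 2 ^ h`.  Rows and columns of the host matrix are indexed by the same
finite linear order `Line h`.  See `PLAN.md` in this folder for the paper proof.
-/

set_option autoImplicit false

namespace Crest.Agent.S0066Aux

/-- Gadget groups. -/
inductive Grp (h : ℕ) where
  | Tr (i : Fin h) (b : Bool)
  | Tt (i : Fin h)
  | Sr (i : Fin h) (b : Bool)
  | St (i : Fin h)
  | start
  | mid1
  | mid2
  | fin
  deriving DecidableEq, Fintype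

/-- Core lines: `top u`, `bot u` are twin lines, `S a i`, `T a i` are regular lines. -/
inductive Core (h : ℕ) where
  | top (u : Fin (2 ^ h))
  | S (a : Fin (2 ^ h)) (i : Fin (h + 1))
  | T (a : Fin (2 ^ h)) (i : Fin (h + 1))
  | bot (u : Fin (2 ^ h))
  deriving DecidableEq, Fintype

/-- All lines: core lines, frame lines (group, role, twin index), junk lines. -/
inductive Line (h : ℕ) where
  | core (c : Core h)
  | fr (g : Grp h) (r : Bool) (u : Fin (2 ^ h))
  | jk (j : Fin (372 * h - 10)) (u : Fin (2 ^ h))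
  deriving DecidableEq, Fintype

/-- Types of core lines. -/
inductive Ty where
  | top
  | S (i : ℕ)
  | T (i : ℕ)
  | bot
  deriving DecidableEq

/-- A marker: a type of core lines, and a flag saying whether only the distinguished half of
that type is marked. -/
structure Mk where
  ty : Ty
  c : Bool

variable {h : ℕ}

/-- An injective numbering of the groups (only used for the order of the lines). -/
def Grp.idx : Grp h → ℕ
  | .Tr i b => 6 * i.val + b.toNat
  | .Tt i => 6 * i.val + 2
  | .Sr i b => 6 * i.val + 3 + b.toNat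
  | .St i => 6 * i.val + 5
  | .start => 6 * h
  | .mid1 => 6 * h + 1
  | .mid2 => 6 * h + 2
  | .fin => 6 * h + 3

/-- Orientation: `true` = horizontal (row fixed, column moves). -/
def Grp.hor : Grp h → Bool
  | .Tr _ _ => true
  | .Tt _ => false
  | .Sr _ _ => false
  | .St _ => true
  | .start => true
  | .mid1 => false
  | .mid2 => true
  | .fin => false

def Grp.fix : Grp h → Mk
  | .Tr i b => ⟨.T i, !b⟩
  | .Tt i => ⟨.T (i + 1), false⟩
  | .Sr i b => ⟨.S i, b⟩
  | .St i => ⟨.S (i + 1), false⟩
  | .start => ⟨.T h, false⟩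
  | .mid1 => ⟨.T 0, false⟩
  | .mid2 => ⟨.S 0, false⟩
  | .fin => ⟨.S h, false⟩

def Grp.src : Grp h → Mk
  | .Tr i _ => ⟨.T (i + 1), false⟩
  | .Tt i => ⟨.T (i + 1), false⟩
  | .Sr i b => ⟨.S i, !b⟩
  | .St i => ⟨.S i, false⟩
  | .start => ⟨.bot, false⟩
  | .mid1 => ⟨.T 0, false⟩
  | .mid2 => ⟨.T 0, false⟩
  | .fin => ⟨.S h, false⟩

def Grp.tgt : Grp h → Mk
  | .Tr i b => ⟨.T i, b⟩
  | .Tt i => ⟨.T i, false⟩
  | .Sr i _ => ⟨.S (i + 1), false⟩
  | .St i => ⟨.S (i + 1), false⟩
  | .start => ⟨.T h, false⟩
  | .mid1 => ⟨.S 0, false⟩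
  | .mid2 => ⟨.S 0, false⟩
  | .fin => ⟨.top, false⟩

def botMk : Mk := ⟨.bot, false⟩

/-- The set of core ROWS marked by the frame COLUMN `(g, r)`. -/
def Grp.rowMk (g : Grp h) (r : Bool) : Mk :=
  if g.hor then (if r then botMk else g.fix) else (if r then g.src else g.tgt)

/-- The set of core COLUMNS marked by the frame ROW `(g, r)`. -/
def Grp.colMk (g : Grp h) (r : Bool) : Mk :=
  if g.hor then (if r then g.src else g.tgt) else (if r then botMk else g.fix)

def Core.ty : Core h → Ty
  | .top _ => .top
  | .S _ i => .S i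
  | .T _ i => .T i
  | .bot _ => .bot

/-- The distinguished half of a type: bit `i` of the index is `0` for `T a i`, `1` for `S a i`. -/
def Core.half : Core h → Bool
  | .top _ => true
  | .S a i => a.val.testBit i
  | .T a i => !a.val.testBit i
  | .bot _ => true

def Mk.holds (m : Mk) (p : Core h) : Bool :=
  decide (p.ty = m.ty) && (!m.c || p.half)

/-- Potentials; the core block of the matrix is `[pot p + pot q < 2 N]`. -/
def Core.pot : Core h → ℕ
  | .top _ => 2 * 2 ^ h - 1
  | .S a i => 2 * (2 ^ i.val * (a.val / 2 ^ i.val + 1)) - 1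
  | .T a i => 2 * (2 ^ i.val * (a.val / 2 ^ i.val))
  | .bot _ => 0

/-- The host matrix, indexed by lines. -/
def M : Line h → Line h → Bool
  | .core p, .core q => decide (p.pot + q.pot < 2 * 2 ^ h)
  | .core p, .fr g r _ => (g.rowMk r).holds p
  | .core _, .jk _ _ => false
  | .fr g r _, .core q => (g.colMk r).holds q
  | .fr g _ _, .fr g' _ _ => decide (g = g')
  | .fr _ _ _, .jk _ _ => false
  | .jk _ _, _ => false

/-! ### The order of the lines: lexicographic in `(major, minor)` -/

def Core.major : Core h → ℕ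
  | .top _ => 0
  | .S a _ => 1 + a.val
  | .T a _ => 1 + a.val
  | .bot _ => 2 ^ h + 1

def Core.minor : Core h → ℕ
  | .top u => u.val
  | .S _ i => h - i.val
  | .T _ i => h + 1 + i.val
  | .bot u => u.val

def Line.major : Line h → ℕ
  | .core c => c.major
  | .fr g r _ => 2 ^ h + 2 + 2 * g.idx + r.toNat
  | .jk j _ => 2 ^ h + 2 + 2 * (6 * h + 4) + j.val

def Line.minor : Line h → ℕ
  | .core c => c.minor
  | .fr _ _ u => u.val
  | .jk _ u => u.val

/-! ### Regular / twin lines and the obstruction sets -/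

/-- Regular lines are the `S a i` and `T a i`; all the others are twin lines. -/
def Line.reg : Line h → Bool
  | .core (.S _ _) => true
  | .core (.T _ _) => true
  | _ => false

/-- The index `a` of a regular line, the twin index `u` of a twin line. -/
def Line.ix : Line h → Fin (2 ^ h)
  | .core (.top u) => u
  | .core (.S a _) => a
  | .core (.T a _) => a
  | .core (.bot u) => u
  | .fr _ _ u => u
  | .jk _ u => u

/-- `p` is a regular line of index `κ` or a twin line of twin index `u`. -/
def LineOK (κ u : Fin (2 ^ h)) (p : Line h) : Prop :=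
  p.ix = if p.reg then κ else u

/-- The cell `(p, q)` belongs to the obstruction set `O(κ, u)`. -/
def Sel (κ u : Fin (2 ^ h)) (p q : Line h) : Prop :=
  LineOK κ u p ∧ LineOK κ.rev (u + κ) q ∧ ¬ (p.reg = true ∧ q.reg = true)

/-! ### The pattern -/

def H4 : ℕ → ℕ → Bool
  | 0, 1 | 0, 2 | 1, 0 | 1, 1 | 1, 3 | 2, 0 | 2, 2 | 2, 3 | 3, 1 | 3, 2 | 3, 3 => true
  | _, _ => false

/-- The 66 × 66 pattern: `H4` padded by zeros. -/
def Hpat (i j : Fin 66) : Bool := H4 i.val j.val

end Crest.Agent.S0066Aux
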