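import Crest.Agent.S0066Aux.Defs

set_option autoImplicit false

namespace Crest.Agent.S0066Aux

variable {h : ℕ}

theorem Grp.idx_injective : Function.Injective (Grp.idx (h := h)) := by
  intro g g' hg
  rcases g with ⟨i, (_|_)⟩ | i | ⟨i, (_|_)⟩ | i | _ | _ | _ | _ <;>
  rcases g' with ⟨i', (_|_)⟩ | i' | ⟨i', (_|_)⟩ | i' | _ | _ | _ | _ <;>
  simp only [Grp.idx, Bool.toNat_false, Bool.toNat_true] at hg <;>
  first
  | rfl
  | (exfalso; omega)
  | (have : i = i' := Fin.ext (by omega); subst this; rfl)

theorem Grp.idx_lt (g : Grp h) : g.idx < 6 * h + 4 := by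
  rcases g with ⟨i, (_|_)⟩ | i | ⟨i, (_|_)⟩ | i | _ | _ | _ | _ <;>
  simp only [Grp.idx, Bool.toNat_false, Bool.toNat_true] <;> omega

theorem Core.major_le (c : Core h) : c.major ≤ 2 ^ h + 1 := by
  rcases c with u | ⟨a, i⟩ | ⟨a, i⟩ | u <;> simp only [Core.major]
  · exact Nat.zero_le _
  · have := a.isLt; omega
  · have := a.isLt; omega
  · omega

theorem Core.key_injective (c c' : Core h) (h1 : c.major = c'.major) (h2 : c.minor = c'.minor) :
    c = c' := by
  rcases c with u | ⟨a, i⟩ | ⟨a, i⟩ | u <;> rcases c' with u' | ⟨a', i'⟩ | ⟨a', i'⟩ | u' <;>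
  simp only [Core.major, Core.minor] at h1 h2 <;>
  first
  | (exfalso; omega)
  | (have : u = u' := Fin.ext (by omega); subst this; rfl)
  | (have : a = a' := Fin.ext (by omega); have : i = i' := Fin.ext (by omega); subst_vars; rfl)

theorem Line.key_injective :
    Function.Injective (fun p : Line h => toLex (p.major, p.minor)) := by
  intro p q hpq
  have hpq' : (p.major, p.minor) = (q.major, q.minor) := hpq
  rw [Prod.mk.injEq] at hpq'
  obtain ⟨h1, h2⟩ := hpq'
  rcases p with c | ⟨g, r, u⟩ | ⟨j, u⟩ <;> rcases q with c' | ⟨g', r', u'⟩ | ⟨j', u'⟩ <;>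
  simp only [Line.major, Line.minor] at h1 h2
  · rw [Core.key_injective c c' h1 h2]
  · have := c.major_le; omega
  · have := c.major_le; omega
  · have := c'.major_le; omega
  · have hr : r.toNat ≤ 1 := Bool.toNat_le r
    have hr' : r'.toNat ≤ 1 := Bool.toNat_le r'
    have hg : g = g' := Grp.idx_injective (by omega)
    have hrr : r = r' := by
      have : r.toNat = r'.toNat := by omega
      revert this; cases r <;> cases r' <;> simp
    have hu : u = u' := Fin.ext h2
    subst_vars; rfl
  · have := g.idx_lt; have hr : r.toNat ≤ 1 := Bool.toNat_le r; omega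
  · have := c'.major_le; omega
  · have := g'.idx_lt; have hr : r'.toNat ≤ 1 := Bool.toNat_le r'; omega
  · have : j = j' := Fin.ext (by omega)
    have hu : u = u' := Fin.ext h2
    subst_vars; rfl

instance : LinearOrder (Line h) :=
  LinearOrder.lift' (fun p : Line h => toLex (p.major, p.minor)) Line.key_injective

theorem Line.lt_iff (p q : Line h) :
    p < q ↔ p.major < q.major ∨ (p.major = q.major ∧ p.minor < q.minor) := by
  show toLex (p.major, p.minor) < toLex (q.major, q.minor) ↔ _
  rw [Prod.Lex.toLex_lt_toLex]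

end Crest.Agent.S0066Aux
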