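import Crest.Agent.S0066Aux.Order

set_option autoImplicit false

namespace Crest.Agent.S0066Aux

variable {h : ℕ}

/-- `2 ^ i * (a / 2 ^ i + 1) ≤ 2 ^ h` for `a < 2 ^ h`, `i ≤ h`. -/
theorem block_le {a i : ℕ} (ha : a < 2 ^ h) (hi : i ≤ h) :
    2 ^ i * (a / 2 ^ i + 1) ≤ 2 ^ h := by
  obtain ⟨k, rfl⟩ := Nat.exists_eq_add_of_le hi
  rw [pow_add] at ha ⊢
  apply Nat.mul_le_mul_left
  have : a / 2 ^ i < 2 ^ k := by
    rw [Nat.div_lt_iff_lt_mul (Nat.two_pow_pos i)]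
    rwa [mul_comm]
  omega

/-- All potentials are at most `2 N - 1`. -/
theorem Core.pot_le (c : Core h) : c.pot ≤ 2 * 2 ^ h - 1 := by
  rcases c with u | ⟨a, i⟩ | ⟨a, i⟩ | u <;> simp only [Core.pot]
  · exact le_rfl
  · have := block_le a.isLt (Nat.lt_succ_iff.mp i.isLt)
    omega
  · have h1 : 2 ^ i.val * (a.val / 2 ^ i.val) ≤ a.val := Nat.mul_div_le _ _
    have := a.isLt
    omega
  · exact Nat.zero_le _


theorem exists_split {h i : ℕ} (hi : i < h) : ∃ K, 2 ^ h = 2 ^ i * (2 * K) :=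
  ⟨2 ^ (h - i - 1), by rw [← pow_succ', ← pow_add]; congr 1; omega⟩

theorem div_pow_succ (c i : ℕ) : c / 2 ^ (i + 1) = c / 2 ^ i / 2 := by
  rw [pow_succ, Nat.div_div_eq_div_mul]

theorem bit_false {a i : ℕ} (hb : a.testBit i = false) : a / 2 ^ i % 2 = 0 := by
  rw [Nat.testBit_eq_decide_div_mod_eq] at hb
  have := of_decide_eq_false hb
  omega

theorem bit_true {a i : ℕ} (hb : a.testBit i = true) : a / 2 ^ i % 2 = 1 := by
  rw [Nat.testBit_eq_decide_div_mod_eq] at hb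
  exact of_decide_eq_true hb

/-- cancel the common factor in a `T`/`T` inequality -/
theorem cancel_lt {P x y : ℕ} (hP : 0 < P) : 2 * (P * x) < 2 * (P * y) ↔ x < y := by
  constructor
  · intro hh
    have : P * x < P * y := by omega
    exact Nat.lt_of_mul_lt_mul_left this
  · intro hh
    have : P * x < P * y := Nat.mul_lt_mul_of_pos_left hh hP
    omega

/-- cancel the common factor in an `S`/`S` inequality -/
theorem cancel_SS {P x y z : ℕ} (hP : 0 < P) :
    2 * (P * (x + 1)) - 1 + (2 * (P * (y + 1)) - 1) < 2 * (P * z) ↔ x + y + 2 ≤ z := by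
  have hx : 0 < P * (x + 1) := Nat.mul_pos hP (Nat.succ_pos _)
  have hy : 0 < P * (y + 1) := Nat.mul_pos hP (Nat.succ_pos _)
  have e : P * (x + y + 2) = P * (x + 1) + P * (y + 1) := by ring
  constructor
  · intro hh
    have : P * (x + y + 2) ≤ P * z := by omega
    exact Nat.le_of_mul_le_mul_left this hP
  · intro hh
    have : P * (x + y + 2) ≤ P * z := Nat.mul_le_mul_left P hh
    omega

theorem tr_false {h i a c c' : ℕ} (hi : i < h) (hb : a.testBit i = false) (hcc : c' ≤ c)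
    (h1 : 2 * (2 ^ i * (a / 2 ^ i)) + 2 * (2 ^ (i + 1) * (c / 2 ^ (i + 1))) < 2 * 2 ^ h) :
    2 * (2 ^ i * (a / 2 ^ i)) + 2 * (2 ^ i * (c' / 2 ^ i)) < 2 * 2 ^ h := by
  obtain ⟨K, hK⟩ := exists_split hi
  have hP : 0 < 2 ^ i := Nat.two_pow_pos i
  have hA := bit_false hb
  have hC : c' / 2 ^ i ≤ c / 2 ^ i := Nat.div_le_div_right hcc
  rw [hK, div_pow_succ, pow_succ] at h1
  rw [hK]
  generalize 2 ^ i = P at *
  generalize a / P = A at *
  generalize c / P = C at *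
  generalize c' / P = C' at *
  have e1 : 2 * (P * A) + 2 * (P * 2 * (C / 2)) = 2 * (P * (A + 2 * (C / 2))) := by ring
  have e2 : 2 * (P * A) + 2 * (P * C') = 2 * (P * (A + C')) := by ring
  rw [e1, cancel_lt hP] at h1
  rw [e2, cancel_lt hP]
  omega

theorem tr_true {h i a c c' : ℕ} (hi : i < h) (hb : c'.testBit i = false) (hcc : c' ≤ c)
    (h1 : 2 * (2 ^ i * (a / 2 ^ i)) + 2 * (2 ^ (i + 1) * (c / 2 ^ (i + 1))) < 2 * 2 ^ h) :
    2 * (2 ^ i * (a / 2 ^ i)) + 2 * (2 ^ i * (c' / 2 ^ i)) < 2 * 2 ^ h := by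
  obtain ⟨K, hK⟩ := exists_split hi
  have hP : 0 < 2 ^ i := Nat.two_pow_pos i
  have hA := bit_false hb
  have hC : c' / 2 ^ i ≤ c / 2 ^ i := Nat.div_le_div_right hcc
  rw [hK, div_pow_succ, pow_succ] at h1
  rw [hK]
  generalize 2 ^ i = P at *
  generalize a / P = A at *
  generalize c / P = C at *
  generalize c' / P = C' at *
  have e1 : 2 * (P * A) + 2 * (P * 2 * (C / 2)) = 2 * (P * (A + 2 * (C / 2))) := by ring
  have e2 : 2 * (P * A) + 2 * (P * C') = 2 * (P * (A + C')) := by ring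
  rw [e1, cancel_lt hP] at h1
  rw [e2, cancel_lt hP]
  omega

theorem tt_arith {h i a c c' : ℕ} (hi : i < h) (hcc : c' ≤ c)
    (h1 : 2 * (2 ^ (i + 1) * (a / 2 ^ (i + 1))) + 2 * (2 ^ (i + 1) * (c / 2 ^ (i + 1))) < 2 * 2 ^ h) :
    2 * (2 ^ (i + 1) * (a / 2 ^ (i + 1))) + 2 * (2 ^ i * (c' / 2 ^ i)) < 2 * 2 ^ h := by
  obtain ⟨K, hK⟩ := exists_split hi
  have hP : 0 < 2 ^ i := Nat.two_pow_pos i
  have hC : c' / 2 ^ i ≤ c / 2 ^ i := Nat.div_le_div_right hcc
  rw [hK, div_pow_succ, div_pow_succ, pow_succ] at h1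
  rw [hK, div_pow_succ, pow_succ]
  generalize 2 ^ i = P at *
  generalize a / P = A at *
  generalize c / P = C at *
  generalize c' / P = C' at *
  have e1 : 2 * (P * 2 * (A / 2)) + 2 * (P * 2 * (C / 2)) = 2 * (P * (2 * (A / 2) + 2 * (C / 2))) := by
    ring
  have e2 : 2 * (P * 2 * (A / 2)) + 2 * (P * C') = 2 * (P * (2 * (A / 2) + C')) := by ring
  rw [e1, cancel_lt hP] at h1
  rw [e2, cancel_lt hP]
  omega

theorem sr_true {h i a c c' : ℕ} (hi : i < h) (hb : a.testBit i = true) (hcc : c' ≤ c)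
    (h1 : 2 * (2 ^ i * (a / 2 ^ i + 1)) - 1 + (2 * (2 ^ i * (c / 2 ^ i + 1)) - 1) < 2 * 2 ^ h) :
    2 * (2 ^ i * (a / 2 ^ i + 1)) - 1 + (2 * (2 ^ (i + 1) * (c' / 2 ^ (i + 1) + 1)) - 1)
      < 2 * 2 ^ h := by
  obtain ⟨K, hK⟩ := exists_split hi
  have hP : 0 < 2 ^ i := Nat.two_pow_pos i
  have hA := bit_true hb
  have hC : c' / 2 ^ i ≤ c / 2 ^ i := Nat.div_le_div_right hcc
  rw [hK] at h1
  rw [hK, div_pow_succ, pow_succ]
  generalize 2 ^ i = P at *
  generalize a / P = A at *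
  generalize c / P = C at *
  generalize c' / P = C' at *
  have e2 : P * 2 * (C' / 2 + 1) = P * ((2 * (C' / 2) + 1) + 1) := by ring
  rw [cancel_SS hP] at h1
  rw [e2, cancel_SS hP]
  omega

theorem sr_false {h i a c c' : ℕ} (hi : i < h) (hb : c.testBit i = true) (hcc : c' ≤ c)
    (h1 : 2 * (2 ^ i * (a / 2 ^ i + 1)) - 1 + (2 * (2 ^ i * (c / 2 ^ i + 1)) - 1) < 2 * 2 ^ h) :
    2 * (2 ^ i * (a / 2 ^ i + 1)) - 1 + (2 * (2 ^ (i + 1) * (c' / 2 ^ (i + 1) + 1)) - 1)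
      < 2 * 2 ^ h := by
  obtain ⟨K, hK⟩ := exists_split hi
  have hP : 0 < 2 ^ i := Nat.two_pow_pos i
  have hA := bit_true hb
  have hC : c' / 2 ^ i ≤ c / 2 ^ i := Nat.div_le_div_right hcc
  rw [hK] at h1
  rw [hK, div_pow_succ, pow_succ]
  generalize 2 ^ i = P at *
  generalize a / P = A at *
  generalize c / P = C at *
  generalize c' / P = C' at *
  have e2 : P * 2 * (C' / 2 + 1) = P * ((2 * (C' / 2) + 1) + 1) := by ring
  rw [cancel_SS hP] at h1
  rw [e2, cancel_SS hP]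
  omega

theorem st_arith {h i a c c' : ℕ} (hi : i < h) (hcc : c' ≤ c)
    (h1 : 2 * (2 ^ (i + 1) * (a / 2 ^ (i + 1) + 1)) - 1 + (2 * (2 ^ i * (c / 2 ^ i + 1)) - 1)
      < 2 * 2 ^ h) :
    2 * (2 ^ (i + 1) * (a / 2 ^ (i + 1) + 1)) - 1 + (2 * (2 ^ (i + 1) * (c' / 2 ^ (i + 1) + 1)) - 1)
      < 2 * 2 ^ h := by
  obtain ⟨K, hK⟩ := exists_split hi
  have hP : 0 < 2 ^ i := Nat.two_pow_pos i
  have hC : c' / 2 ^ i ≤ c / 2 ^ i := Nat.div_le_div_right hcc
  rw [hK, div_pow_succ, pow_succ] at h1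
  rw [hK, div_pow_succ, div_pow_succ, pow_succ]
  generalize 2 ^ i = P at *
  generalize a / P = A at *
  generalize c / P = C at *
  generalize c' / P = C' at *
  have e1 : P * 2 * (A / 2 + 1) = P * ((2 * (A / 2) + 1) + 1) := by ring
  have e2 : P * 2 * (C' / 2 + 1) = P * ((2 * (C' / 2) + 1) + 1) := by ring
  rw [e1, cancel_SS hP] at h1
  rw [e1, e2, cancel_SS hP]
  omega


/-- Soundness of the gadget groups: the rule "`(f, s)` is a one and `t < s` implies `(f, t)` is a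
one" holds in the core block for all groups, except for `mid2` at the special cells. -/
theorem sound (g : Grp h) (f s t : Core h)
    (hf : g.fix.holds f = true) (hs : g.src.holds s = true) (ht : g.tgt.holds t = true)
    (hts : Line.core t < Line.core s)
    (h1 : f.pot + s.pot < 2 * 2 ^ h) (h0 : ¬ f.pot + t.pot < 2 * 2 ^ h) :
    g = .mid2 ∧ ∃ a : Fin (2 ^ h), f = .S a 0 ∧ t = .S a.rev 0 := by
  rcases g with ⟨i, (_|_)⟩ | i | ⟨i, (_|_)⟩ | i | _ | _ | _ | _
  · -- Tr i false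
    rcases f with u | ⟨a, ia⟩ | ⟨a, ia⟩ | u <;>
      simp [Mk.holds, Grp.fix, Core.ty, Core.half] at hf
    rcases s with u | ⟨c, ic⟩ | ⟨c, ic⟩ | u <;>
      simp [Mk.holds, Grp.src, Core.ty, Core.half] at hs
    rcases t with u | ⟨c', ic'⟩ | ⟨c', ic'⟩ | u <;>
      simp [Mk.holds, Grp.tgt, Core.ty, Core.half] at ht
    simp only [Line.lt_iff, Line.major, Line.minor, Core.major, Core.minor] at hts
    simp only [Core.pot] at h1 h0
    obtain ⟨hia, hb⟩ := hf
    rw [hia] at hb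
    rw [hia, hs] at h1
    rw [hia, ht] at h0
    exact absurd (tr_false i.isLt hb (by omega) h1) h0
  · -- Tr i true
    rcases f with u | ⟨a, ia⟩ | ⟨a, ia⟩ | u <;>
      simp [Mk.holds, Grp.fix, Core.ty, Core.half] at hf
    rcases s with u | ⟨c, ic⟩ | ⟨c, ic⟩ | u <;>
      simp [Mk.holds, Grp.src, Core.ty, Core.half] at hs
    rcases t with u | ⟨c', ic'⟩ | ⟨c', ic'⟩ | u <;>
      simp [Mk.holds, Grp.tgt, Core.ty, Core.half] at ht
    simp only [Line.lt_iff, Line.major, Line.minor, Core.major, Core.minor] at hts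
    simp only [Core.pot] at h1 h0
    obtain ⟨hic', hb⟩ := ht
    rw [hic'] at hb
    rw [hf, hs] at h1
    rw [hf, hic'] at h0
    exact absurd (tr_true i.isLt hb (by omega) h1) h0
  · -- Tt i
    rcases f with u | ⟨a, ia⟩ | ⟨a, ia⟩ | u <;>
      simp [Mk.holds, Grp.fix, Core.ty, Core.half] at hf
    rcases s with u | ⟨c, ic⟩ | ⟨c, ic⟩ | u <;>
      simp [Mk.holds, Grp.src, Core.ty, Core.half] at hs
    rcases t with u | ⟨c', ic'⟩ | ⟨c', ic'⟩ | u <;>
      simp [Mk.holds, Grp.tgt, Core.ty, Core.half] at ht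
    simp only [Line.lt_iff, Line.major, Line.minor, Core.major, Core.minor] at hts
    simp only [Core.pot] at h1 h0
    rw [hf, hs] at h1
    rw [hf, ht] at h0
    exact absurd (tt_arith i.isLt (by omega) h1) h0
  · -- Sr i false
    rcases f with u | ⟨a, ia⟩ | ⟨a, ia⟩ | u <;>
      simp [Mk.holds, Grp.fix, Core.ty, Core.half] at hf
    rcases s with u | ⟨c, ic⟩ | ⟨c, ic⟩ | u <;>
      simp [Mk.holds, Grp.src, Core.ty, Core.half] at hs
    rcases t with u | ⟨c', ic'⟩ | ⟨c', ic'⟩ | u <;>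
      simp [Mk.holds, Grp.tgt, Core.ty, Core.half] at ht
    simp only [Line.lt_iff, Line.major, Line.minor, Core.major, Core.minor] at hts
    simp only [Core.pot] at h1 h0
    obtain ⟨hic, hb⟩ := hs
    rw [hic] at hb
    rw [hf, hic] at h1
    rw [hf, ht] at h0
    exact absurd (sr_false i.isLt hb (by omega) h1) h0
  · -- Sr i true
    rcases f with u | ⟨a, ia⟩ | ⟨a, ia⟩ | u <;>
      simp [Mk.holds, Grp.fix, Core.ty, Core.half] at hf
    rcases s with u | ⟨c, ic⟩ | ⟨c, ic⟩ | u <;>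
      simp [Mk.holds, Grp.src, Core.ty, Core.half] at hs
    rcases t with u | ⟨c', ic'⟩ | ⟨c', ic'⟩ | u <;>
      simp [Mk.holds, Grp.tgt, Core.ty, Core.half] at ht
    simp only [Line.lt_iff, Line.major, Line.minor, Core.major, Core.minor] at hts
    simp only [Core.pot] at h1 h0
    obtain ⟨hia, hb⟩ := hf
    rw [hia] at hb
    rw [hia, hs] at h1
    rw [hia, ht] at h0
    exact absurd (sr_true i.isLt hb (by omega) h1) h0
  · -- St i
    rcases f with u | ⟨a, ia⟩ | ⟨a, ia⟩ | u <;>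
      simp [Mk.holds, Grp.fix, Core.ty, Core.half] at hf
    rcases s with u | ⟨c, ic⟩ | ⟨c, ic⟩ | u <;>
      simp [Mk.holds, Grp.src, Core.ty, Core.half] at hs
    rcases t with u | ⟨c', ic'⟩ | ⟨c', ic'⟩ | u <;>
      simp [Mk.holds, Grp.tgt, Core.ty, Core.half] at ht
    simp only [Line.lt_iff, Line.major, Line.minor, Core.major, Core.minor] at hts
    simp only [Core.pot] at h1 h0
    rw [hf, hs] at h1
    rw [hf, ht] at h0
    exact absurd (st_arith i.isLt (by omega) h1) h0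
  · -- start
    rcases f with u | ⟨a, ia⟩ | ⟨a, ia⟩ | u <;>
      simp [Mk.holds, Grp.fix, Core.ty, Core.half] at hf
    rcases t with u | ⟨c', ic'⟩ | ⟨c', ic'⟩ | u <;>
      simp [Mk.holds, Grp.tgt, Core.ty, Core.half] at ht
    simp only [Core.pot] at h0
    rw [hf, ht, Nat.div_eq_of_lt a.isLt, Nat.div_eq_of_lt c'.isLt] at h0
    have := Nat.two_pow_pos h
    omega
  · -- mid1
    rcases f with u | ⟨a, ia⟩ | ⟨a, ia⟩ | u <;>
      simp [Mk.holds, Grp.fix, Core.ty, Core.half] at hf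
    rcases s with u | ⟨c, ic⟩ | ⟨c, ic⟩ | u <;>
      simp [Mk.holds, Grp.src, Core.ty, Core.half] at hs
    rcases t with u | ⟨c', ic'⟩ | ⟨c', ic'⟩ | u <;>
      simp [Mk.holds, Grp.tgt, Core.ty, Core.half] at ht
    simp only [Line.lt_iff, Line.major, Line.minor, Core.major, Core.minor] at hts
    simp only [Core.pot] at h1 h0
    subst hf hs ht
    simp only [Fin.val_zero, pow_zero, Nat.div_one, one_mul] at h1 h0
    omega
  · -- mid2
    rcases f with u | ⟨a, ia⟩ | ⟨a, ia⟩ | u <;>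
      simp [Mk.holds, Grp.fix, Core.ty, Core.half] at hf
    rcases s with u | ⟨c, ic⟩ | ⟨c, ic⟩ | u <;>
      simp [Mk.holds, Grp.src, Core.ty, Core.half] at hs
    rcases t with u | ⟨c', ic'⟩ | ⟨c', ic'⟩ | u <;>
      simp [Mk.holds, Grp.tgt, Core.ty, Core.half] at ht
    simp only [Line.lt_iff, Line.major, Line.minor, Core.major, Core.minor] at hts
    simp only [Core.pot] at h1 h0
    subst hf hs ht
    simp only [Fin.val_zero, pow_zero, Nat.div_one, one_mul] at h1 h0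
    refine ⟨rfl, a, rfl, ?_⟩
    have : c' = a.rev := by
      apply Fin.ext
      rw [Fin.val_rev]
      omega
    rw [this]
  · -- fin
    rcases f with u | ⟨a, ia⟩ | ⟨a, ia⟩ | u <;>
      simp [Mk.holds, Grp.fix, Core.ty, Core.half] at hf
    rcases s with u | ⟨c, ic⟩ | ⟨c, ic⟩ | u <;>
      simp [Mk.holds, Grp.src, Core.ty, Core.half] at hs
    simp only [Core.pot] at h1
    rw [hf, hs, Nat.div_eq_of_lt a.isLt, Nat.div_eq_of_lt c.isLt] at h1
    have := Nat.two_pow_pos h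
    omega

end Crest.Agent.S0066Aux
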